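import Mathlib

namespace Vale.Agent.P205

open scoped ContDiff

theorem prim_hasDerivAt (f : ℝ → ℝ) (hf : Continuous f) (x0 x : ℝ) :
    HasDerivAt (fun u => ∫ t in x0..u, f t) (f x) x :=
  (hf.integral_hasStrictDerivAt x0 x).hasDerivAt

theorem prim_contDiff (f : ℝ → ℝ) (hf : ContDiff ℝ ∞ f) (x0 : ℝ) :
    ContDiff ℝ ∞ (fun u => ∫ t in x0..u, f t) := by
  rw [contDiff_infty_iff_deriv]
  refine ⟨fun x => (prim_hasDerivAt f hf.continuous x0 x).differentiableAt, ?_⟩
  have : deriv (fun u => ∫ t in x0..u, f t) = f :=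
    funext fun x => (prim_hasDerivAt f hf.continuous x0 x).deriv
  rw [this]
  exact hf

theorem exists_angle (s : ℝ → ℝ) (hs : ContDiff ℝ ∞ s) (T : ℝ) (hT : 0 < T)
    (hsT : ∀ u, s (u + T) = s u) (hpos : ∀ u, 0 < s u) :
    ∃ R : ℝ, 0 < R ∧ ∃ θ : ℝ → ℝ, ContDiff ℝ ∞ θ ∧ (∀ u, HasDerivAt θ (s u / R) u) ∧
      ∀ u, θ (u + T) = θ u + 2 * Real.pi := by
  have hc : Continuous s := hs.continuous
  have hI : 0 < ∫ t in (0 : ℝ)..T, s t :=
    intervalIntegral.intervalIntegral_pos_of_pos (hc.intervalIntegrable _ _) hpos hT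
  have hpi : 0 < 2 * Real.pi := by positivity
  have hR : 0 < (∫ t in (0 : ℝ)..T, s t) / (2 * Real.pi) := by positivity
  refine ⟨(∫ t in (0 : ℝ)..T, s t) / (2 * Real.pi), hR,
    fun u => (∫ t in (0 : ℝ)..u, s t) / ((∫ t in (0 : ℝ)..T, s t) / (2 * Real.pi)), ?_, ?_, ?_⟩
  · exact (prim_contDiff s hs 0).div_const _
  · intro u
    exact (prim_hasDerivAt s hc 0 u).div_const _
  · intro u
    have hper : Function.Periodic s T := hsT
    have h1 : ∫ t in (0 : ℝ)..(u + T), s t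
        = (∫ t in (0 : ℝ)..u, s t) + ∫ t in u..(u + T), s t :=
      (intervalIntegral.integral_add_adjacent_intervals (hc.intervalIntegrable _ _)
        (hc.intervalIntegrable _ _)).symm
    have h2 : ∫ t in u..(u + T), s t = ∫ t in (0 : ℝ)..T, s t := by
      have := hper.intervalIntegral_add_eq u 0
      simpa using this
    simp only
    rw [h1, h2, add_div]
    congr 1
    field_simp

end Vale.Agent.P205
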