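import Mathlib

namespace Vale.Agent.P205

open scoped ContDiff

theorem exists_wrap (e a : ℝ → ℝ) (he : ContDiff ℝ ∞ e) (ha : ContDiff ℝ ∞ a) (T L : ℝ)
    (hT : 0 < T) (hL : 0 < L) (heT : ∀ u, e (u + T) = e u) (haT : ∀ u, a (u + T) = a u)
    (hpos : ∀ u, 0 < e u) :
    ∃ m : ℕ, 0 < m ∧ ∀ u, (deriv a u / (2 * Real.pi * m / L)) ^ 2 < e u ^ 2 := by
  have hda : Continuous (deriv a) := ha.continuous_deriv (by simp)
  have hdaT : Function.Periodic (fun u => |deriv a u|) T := by
    intro u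
    have h1 : deriv a (u + T) = deriv a u := by
      have h2 : (fun x => a (x + T)) = a := funext haT
      rw [← deriv_comp_add_const, h2]
    simp only [h1]
  have hc1 : IsCompact (Set.range (fun u => |deriv a u|)) :=
    hdaT.compact_of_continuous hT.ne' hda.abs
  have hc2 : IsCompact (Set.range e) :=
    (show Function.Periodic e T from heT).compact_of_continuous hT.ne' he.continuous
  obtain ⟨C, hC⟩ := hc1.bddAbove
  obtain ⟨c, ⟨u0, rfl⟩, hc⟩ := hc2.exists_isLeast (Set.range_nonempty e)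
  have hCb : ∀ u, |deriv a u| ≤ C := fun u => hC ⟨u, rfl⟩
  have hcb : ∀ u, e u0 ≤ e u := fun u => hc ⟨u, rfl⟩
  have hc0 := hpos u0
  obtain ⟨m, hm⟩ := exists_nat_gt (max 0 (C * L / (2 * Real.pi * e u0)))
  have hm0 : (0 : ℝ) < m := lt_of_le_of_lt (le_max_left _ _) hm
  have hm1 : C * L / (2 * Real.pi * e u0) < m := lt_of_le_of_lt (le_max_right _ _) hm
  refine ⟨m, by exact_mod_cast hm0, fun u => ?_⟩
  have hpi := Real.pi_pos
  have hk : 0 < 2 * Real.pi * m / L := by positivity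
  have h3 : |deriv a u / (2 * Real.pi * m / L)| < e u := by
    rw [abs_div, abs_of_pos hk, div_lt_iff₀ hk]
    calc |deriv a u| ≤ C := hCb u
      _ < e u0 * (2 * Real.pi * m / L) := by
          rw [div_lt_iff₀ (by positivity)] at hm1
          rw [← mul_div_assoc, lt_div_iff₀ hL]
          nlinarith
      _ ≤ e u * (2 * Real.pi * m / L) := mul_le_mul_of_nonneg_right (hcb u) hk.le
  exact sq_lt_sq' (abs_lt.1 h3).1 (abs_lt.1 h3).2

end Vale.Agent.P205
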