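import Mathlib

/-! P205, PART F: inner products of the derivative of a map into Euclidean four-space. -/

namespace Vale.Agent.P205

open scoped ContDiff

theorem inner_fderiv4 (X Y Z W : ℝ × ℝ → ℝ) (q : ℝ × ℝ) (LX LY LZ LW : ℝ × ℝ →L[ℝ] ℝ)
    (hX : HasFDerivAt X LX q) (hY : HasFDerivAt Y LY q) (hZ : HasFDerivAt Z LZ q)
    (hW : HasFDerivAt W LW q) (v w : ℝ × ℝ) :
    inner ℝ (fderiv ℝ (fun q => (!₂[X q, Y q, Z q, W q] : EuclideanSpace ℝ (Fin 4))) q v)
      (fderiv ℝ (fun q => (!₂[X q, Y q, Z q, W q] : EuclideanSpace ℝ (Fin 4))) q w)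
      = LX v * LX w + LY v * LY w + LZ v * LZ w + LW v * LW w := by
  have h : HasFDerivAt (fun q => (!₂[X q, Y q, Z q, W q] : EuclideanSpace ℝ (Fin 4)))
      ((EuclideanSpace.equiv (Fin 4) ℝ).symm.toContinuousLinearMap ∘L
        (ContinuousLinearMap.pi ![LX, LY, LZ, LW])) q := by
    rw [← hasFDerivWithinAt_univ, hasFDerivWithinAt_euclidean]
    intro i
    rw [hasFDerivWithinAt_univ]
    fin_cases i
    · exact hX
    · exact hY
    · exact hZ
    · exact hW
  rw [h.fderiv]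
  simp [PiLp.inner_apply, Fin.sum_univ_four]
  ring

end Vale.Agent.P205
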