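import Vale.Agent.P205.Main

/-!
P205: metrics on the torus invariant under one circle of translations, with rational twist.
-/

namespace Vale.Agent.P205

open scoped ContDiff

theorem invariant (E F G : ℝ → ℝ) (hE : ContDiff ℝ ∞ E) (hF : ContDiff ℝ ∞ F)
    (hG : ContDiff ℝ ∞ G) (T L : ℝ) (hT : 0 < T) (hL : 0 < L)
    (hET : ∀ u, E (u + T) = E u) (hFT : ∀ u, F (u + T) = F u) (hGT : ∀ u, G (u + T) = G u)
    (hGpos : ∀ u, 0 < G u) (hdet : ∀ u, 0 < E u * G u - F u ^ 2)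
    (s : ℕ) (hs : 0 < s) (r : ℤ) (htw : ∫ t in (0 : ℝ)..T, F t / G t = r * (L / s)) :
    ∃ Φ : ℝ × ℝ → EuclideanSpace ℝ (Fin 4), ContDiff ℝ ∞ Φ ∧
      (∀ q : ℝ × ℝ, Φ (q.1 + T, q.2) = Φ q) ∧ (∀ q : ℝ × ℝ, Φ (q.1, q.2 + L) = Φ q) ∧
      ∀ q : ℝ × ℝ,
        inner ℝ (fderiv ℝ Φ q (1, 0)) (fderiv ℝ Φ q (1, 0)) = E q.1 ∧
        inner ℝ (fderiv ℝ Φ q (1, 0)) (fderiv ℝ Φ q (0, 1)) = F q.1 ∧
        inner ℝ (fderiv ℝ Φ q (0, 1)) (fderiv ℝ Φ q (0, 1)) = G q.1 := by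
  have hs' : (0 : ℝ) < s := by exact_mod_cast hs
  have hG0 : ∀ u, G u ≠ 0 := fun u => (hGpos u).ne'
  set w : ℝ → ℝ := fun u => E u - F u ^ 2 / G u with hw
  have hw0 : ∀ u, 0 < w u := by
    intro u
    have : w u = (E u * G u - F u ^ 2) / G u := by
      simp only [hw]
      field_simp [hG0 u]
    rw [this]
    exact div_pos (hdet u) (hGpos u)
  have hwc : ContDiff ℝ ∞ w := hE.sub ((hF.pow 2).div hG hG0)
  set e : ℝ → ℝ := fun u => Real.sqrt (w u) with he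
  set a : ℝ → ℝ := fun u => Real.sqrt (G u) with ha
  have hec : ContDiff ℝ ∞ e := hwc.sqrt (fun u => (hw0 u).ne')
  have hac : ContDiff ℝ ∞ a := hG.sqrt hG0
  have heT : ∀ u, e (u + T) = e u := by
    intro u
    simp only [he, hw, hET, hFT, hGT]
  have haT : ∀ u, a (u + T) = a u := by
    intro u
    simp only [ha, hGT]
  have he0 : ∀ u, 0 < e u := fun u => Real.sqrt_pos.2 (hw0 u)
  set h : ℝ → ℝ := fun u => F u / G u with hh
  have hhc : ContDiff ℝ ∞ h := hF.div hG hG0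
  have hhT : Function.Periodic h T := by
    intro u
    simp only [hh, hFT, hGT]
  set ψ : ℝ → ℝ := fun u => ∫ t in (0 : ℝ)..u, h t with hψ
  have hψc : ContDiff ℝ ∞ ψ := prim_contDiff h hhc 0
  have hψd : ∀ u, HasDerivAt ψ (h u) u := fun u => prim_hasDerivAt h hhc.continuous 0 u
  have hψT : ∀ u, ψ (u + T) = ψ u + r * (L / s) := by
    intro u
    have h1 : ∫ t in (0 : ℝ)..(u + T), h t = (∫ t in (0 : ℝ)..u, h t) + ∫ t in u..(u + T), h t :=
      (intervalIntegral.integral_add_adjacent_intervals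
        (hhc.continuous.intervalIntegrable _ _) (hhc.continuous.intervalIntegrable _ _)).symm
    have h2 : ∫ t in u..(u + T), h t = ∫ t in (0 : ℝ)..(0 + T), h t :=
      hhT.intervalIntegral_add_eq u 0
    rw [zero_add] at h2
    simp only [hψ]
    rw [h1, h2, htw]
  obtain ⟨Φ, hΦc, hΦT, hΦL, hΦm⟩ := warped e a hec hac T (L / s) hT (by positivity) heT haT he0
  have hper : ∀ x, Function.Periodic (fun y => Φ (x, y)) (L / s) := fun x y => hΦL (x, y)
  refine ⟨fun q => Φ (q.1, q.2 + ψ q.1), ?_, ?_, ?_, ?_⟩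
  · exact hΦc.comp (contDiff_fst.prodMk (contDiff_snd.add (hψc.comp contDiff_fst)))
  · intro q
    show Φ (q.1 + T, q.2 + ψ (q.1 + T)) = Φ (q.1, q.2 + ψ q.1)
    rw [hΦT (q.1, q.2 + ψ (q.1 + T)), hψT, ← add_assoc]
    exact (hper q.1).int_mul r (q.2 + ψ q.1)
  · intro q
    show Φ (q.1, q.2 + L + ψ q.1) = Φ (q.1, q.2 + ψ q.1)
    have h1 := (hper q.1).nat_mul s (q.2 + ψ q.1)
    have h2 : (s : ℝ) * (L / s) = L := by field_simp
    rw [h2] at h1
    have h3 : q.2 + L + ψ q.1 = q.2 + ψ q.1 + L := by ring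
    rw [h3]
    exact h1
  · intro q
    set p : ℝ × ℝ := (q.1, q.2 + ψ q.1) with hp
    have hS : HasFDerivAt (fun q : ℝ × ℝ => (q.1, q.2 + ψ q.1))
        ((ContinuousLinearMap.fst ℝ ℝ ℝ).prod (ContinuousLinearMap.snd ℝ ℝ ℝ
          + (h q.1) • ContinuousLinearMap.fst ℝ ℝ ℝ)) q :=
      hasFDerivAt_fst.prodMk (hasFDerivAt_snd.add ((hψd q.1).comp_hasFDerivAt q hasFDerivAt_fst))
    have hΦd : HasFDerivAt Φ (fderiv ℝ Φ p) p :=
      ((hΦc.differentiable (by simp)) p).hasFDerivAt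
    have hΨd := hΦd.comp q hS
    have hfd : fderiv ℝ (fun q : ℝ × ℝ => Φ (q.1, q.2 + ψ q.1)) q
        = (fderiv ℝ Φ p).comp ((ContinuousLinearMap.fst ℝ ℝ ℝ).prod
          (ContinuousLinearMap.snd ℝ ℝ ℝ + (h q.1) • ContinuousLinearMap.fst ℝ ℝ ℝ)) :=
      hΨd.fderiv
    obtain ⟨m1, m2, m3⟩ := hΦm p
    set A := fderiv ℝ Φ p (1, 0) with hA
    set B := fderiv ℝ Φ p (0, 1) with hB
    have d1 : fderiv ℝ (fun q : ℝ × ℝ => Φ (q.1, q.2 + ψ q.1)) q (1, 0) = A + h q.1 • B := by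
      rw [hfd]
      have e1 : ((ContinuousLinearMap.fst ℝ ℝ ℝ).prod (ContinuousLinearMap.snd ℝ ℝ ℝ
          + (h q.1) • ContinuousLinearMap.fst ℝ ℝ ℝ)) ((1 : ℝ), (0 : ℝ))
          = ((1 : ℝ), (0 : ℝ)) + h q.1 • ((0 : ℝ), (1 : ℝ)) := by
        ext <;> simp
      rw [ContinuousLinearMap.comp_apply, e1, map_add, map_smul]
    have d2 : fderiv ℝ (fun q : ℝ × ℝ => Φ (q.1, q.2 + ψ q.1)) q (0, 1) = B := by
      rw [hfd]
      have e1 : ((ContinuousLinearMap.fst ℝ ℝ ℝ).prod (ContinuousLinearMap.snd ℝ ℝ ℝ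
          + (h q.1) • ContinuousLinearMap.fst ℝ ℝ ℝ)) ((0 : ℝ), (1 : ℝ))
          = ((0 : ℝ), (1 : ℝ)) := by
        ext <;> simp
      rw [ContinuousLinearMap.comp_apply, e1]
    have hp1 : p.1 = q.1 := rfl
    rw [hp1] at m1 m3
    have se : e q.1 ^ 2 = w q.1 := Real.sq_sqrt (hw0 q.1).le
    have sa : a q.1 ^ 2 = G q.1 := Real.sq_sqrt (hGpos q.1).le
    have m2' : inner ℝ B A = 0 := by rw [real_inner_comm]; exact m2
    rw [d1, d2]
    refine ⟨?_, ?_, ?_⟩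
    · rw [inner_add_left, inner_add_right, inner_add_right, inner_smul_left, inner_smul_right,
        inner_smul_left, inner_smul_right, m1, m2, m2', m3, se, sa]
      simp only [hw, hh, conj_trivial]
      field_simp [hG0 q.1]
      ring
    · rw [inner_add_left, inner_smul_left, m2, m3, sa]
      simp only [hh, conj_trivial]
      field_simp [hG0 q.1]
      ring
    · rw [m3, sa]

end Vale.Agent.P205
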