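import Vale.Agent.P205.Bound
import Vale.Agent.P205.Angle
import Vale.Agent.P205.Inner4

/-!
P205: warped-product metrics on the torus admit smooth isometric immersions into `ℝ⁴`.
-/

namespace Vale.Agent.P205

open scoped ContDiff

theorem hasFDerivAt_prod (P S : ℝ → ℝ) (P' S' : ℝ) (q : ℝ × ℝ)
    (hP : HasDerivAt P P' q.1) (hS : HasDerivAt S S' q.2) :
    HasFDerivAt (fun q : ℝ × ℝ => P q.1 * S q.2)
      ((P' * S q.2) • ContinuousLinearMap.fst ℝ ℝ ℝ
        + (P q.1 * S') • ContinuousLinearMap.snd ℝ ℝ ℝ) q := by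
  have h2 : HasFDerivAt (fun q : ℝ × ℝ => P q.1) (P' • ContinuousLinearMap.fst ℝ ℝ ℝ) q :=
    hP.comp_hasFDerivAt q hasFDerivAt_fst
  have h3 : HasFDerivAt (fun q : ℝ × ℝ => S q.2) (S' • ContinuousLinearMap.snd ℝ ℝ ℝ) q :=
    hS.comp_hasFDerivAt q hasFDerivAt_snd
  have h4 := h2.mul h3
  refine h4.congr_fderiv ?_
  ext <;> simp <;> ring

theorem warped (e a : ℝ → ℝ) (he : ContDiff ℝ ∞ e) (ha : ContDiff ℝ ∞ a) (T L : ℝ)
    (hT : 0 < T) (hL : 0 < L) (heT : ∀ u, e (u + T) = e u) (haT : ∀ u, a (u + T) = a u)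
    (hpos : ∀ u, 0 < e u) :
    ∃ Φ : ℝ × ℝ → EuclideanSpace ℝ (Fin 4), ContDiff ℝ ∞ Φ ∧
      (∀ q : ℝ × ℝ, Φ (q.1 + T, q.2) = Φ q) ∧ (∀ q : ℝ × ℝ, Φ (q.1, q.2 + L) = Φ q) ∧
      ∀ q : ℝ × ℝ,
        inner ℝ (fderiv ℝ Φ q (1, 0)) (fderiv ℝ Φ q (1, 0)) = e q.1 ^ 2 ∧
        inner ℝ (fderiv ℝ Φ q (1, 0)) (fderiv ℝ Φ q (0, 1)) = 0 ∧
        inner ℝ (fderiv ℝ Φ q (0, 1)) (fderiv ℝ Φ q (0, 1)) = a q.1 ^ 2 := by
  obtain ⟨m, hm, hw⟩ := exists_wrap e a he ha T L hT hL heT haT hpos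
  set k : ℝ := 2 * Real.pi * m / L with hk
  have hm' : (0 : ℝ) < m := by exact_mod_cast hm
  have hk0 : 0 < k := by have := Real.pi_pos; positivity
  have hda : ContDiff ℝ ∞ (deriv a) := (contDiff_infty_iff_deriv.mp ha).2
  have hadiff : ∀ u, HasDerivAt a (deriv a u) u := fun u =>
    ((contDiff_infty_iff_deriv.mp ha).1 u).hasDerivAt
  have hdaT : ∀ u, deriv a (u + T) = deriv a u := by
    intro u
    have h1 : (fun x => a (x + T)) = a := funext haT
    have h2 := deriv_comp_add_const a T u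
    rw [h1] at h2
    exact h2.symm
  set w : ℝ → ℝ := fun u => e u ^ 2 - (deriv a u / k) ^ 2 with hwdef
  have hw0 : ∀ u, 0 < w u := fun u => sub_pos.2 (hw u)
  have hwc : ContDiff ℝ ∞ w := (he.pow 2).sub ((hda.div_const k).pow 2)
  set s : ℝ → ℝ := fun u => Real.sqrt (w u) with hsdef
  have hsc : ContDiff ℝ ∞ s := hwc.sqrt (fun u => (hw0 u).ne')
  have hsT : ∀ u, s (u + T) = s u := by
    intro u
    simp only [hsdef, hwdef, heT, hdaT]
  have hs0 : ∀ u, 0 < s u := fun u => Real.sqrt_pos.2 (hw0 u)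
  obtain ⟨R, hR, θ, hθc, hθd, hθT⟩ := exists_angle s hsc T hT hsT hs0
  set P : ℝ → ℝ := fun u => a u / k with hP
  have hPd : ∀ u, HasDerivAt P (deriv a u / k) u := fun u => (hadiff u).div_const k
  have hPc : ContDiff ℝ ∞ P := ha.div_const k
  set C : ℝ → ℝ := fun v => Real.cos (k * v) with hC
  set S : ℝ → ℝ := fun v => Real.sin (k * v) with hS
  have hlin : ∀ v : ℝ, HasDerivAt (fun v : ℝ => k * v) k v := by
    intro v
    simpa using (hasDerivAt_id v).const_mul k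
  have hCd : ∀ v, HasDerivAt C (- Real.sin (k * v) * k) v := fun v =>
    (Real.hasDerivAt_cos (k * v)).comp v (hlin v)
  have hSd : ∀ v, HasDerivAt S (Real.cos (k * v) * k) v := fun v =>
    (Real.hasDerivAt_sin (k * v)).comp v (hlin v)
  have hlinc : ContDiff ℝ ∞ (fun v : ℝ => k * v) := contDiff_const.mul contDiff_id
  have hCc : ContDiff ℝ ∞ C := Real.contDiff_cos.comp hlinc
  have hSc : ContDiff ℝ ∞ S := Real.contDiff_sin.comp hlinc
  set Zf : ℝ → ℝ := fun u => R * Real.cos (θ u) with hZf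
  set Wf : ℝ → ℝ := fun u => R * Real.sin (θ u) with hWf
  have hZd : ∀ u, HasDerivAt Zf (R * (- Real.sin (θ u) * (s u / R))) u := fun u =>
    ((Real.hasDerivAt_cos (θ u)).comp u (hθd u)).const_mul R
  have hWd : ∀ u, HasDerivAt Wf (R * (Real.cos (θ u) * (s u / R))) u := fun u =>
    ((Real.hasDerivAt_sin (θ u)).comp u (hθd u)).const_mul R
  have hZc : ContDiff ℝ ∞ Zf := contDiff_const.mul (Real.contDiff_cos.comp hθc)
  have hWc : ContDiff ℝ ∞ Wf := contDiff_const.mul (Real.contDiff_sin.comp hθc)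
  set X : ℝ × ℝ → ℝ := fun q => P q.1 * C q.2 with hX
  set Y : ℝ × ℝ → ℝ := fun q => P q.1 * S q.2 with hY
  set Z : ℝ × ℝ → ℝ := fun q => Zf q.1 with hZ
  set W : ℝ × ℝ → ℝ := fun q => Wf q.1 with hW
  refine ⟨fun q => (!₂[X q, Y q, Z q, W q] : EuclideanSpace ℝ (Fin 4)), ?_, ?_, ?_, ?_⟩
  · rw [contDiff_euclidean]
    intro i
    fin_cases i
    · exact (hPc.comp contDiff_fst).mul (hCc.comp contDiff_snd)
    · exact (hPc.comp contDiff_fst).mul (hSc.comp contDiff_snd)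
    · exact hZc.comp contDiff_fst
    · exact hWc.comp contDiff_fst
  · intro q
    simp only [hX, hY, hZ, hW, hP, hZf, hWf, haT, hθT, Real.cos_add_two_pi, Real.sin_add_two_pi]
  · intro q
    have hkL : k * (q.2 + L) = k * q.2 + m * (2 * Real.pi) := by
      rw [hk]
      field_simp
    simp only [hX, hY, hZ, hW, hC, hS, hkL, Real.cos_add_nat_mul_two_pi,
      Real.sin_add_nat_mul_two_pi]
  · intro q
    have hXd := hasFDerivAt_prod P C _ _ q (hPd q.1) (hCd q.2)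
    have hYd := hasFDerivAt_prod P S _ _ q (hPd q.1) (hSd q.2)
    have hZd' : HasFDerivAt Z ((R * (- Real.sin (θ q.1) * (s q.1 / R))) •
        ContinuousLinearMap.fst ℝ ℝ ℝ) q := (hZd q.1).comp_hasFDerivAt q hasFDerivAt_fst
    have hWd' : HasFDerivAt W ((R * (Real.cos (θ q.1) * (s q.1 / R))) •
        ContinuousLinearMap.fst ℝ ℝ ℝ) q := (hWd q.1).comp_hasFDerivAt q hasFDerivAt_fst
    have hsq : s q.1 * s q.1 = w q.1 := Real.mul_self_sqrt (hw0 q.1).le
    have hcs := Real.sin_sq_add_cos_sq (θ q.1)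
    have hcs2 := Real.sin_sq_add_cos_sq (k * q.2)
    have hRs : R * (s q.1 / R) = s q.1 := by field_simp
    refine ⟨?_, ?_, ?_⟩
    · rw [inner_fderiv4 X Y Z W q _ _ _ _ hXd hYd hZd' hWd']
      simp only [_root_.add_apply, _root_.smul_apply,
        ContinuousLinearMap.coe_fst', ContinuousLinearMap.coe_snd', smul_eq_mul, mul_one,
        mul_zero, add_zero, hC, hS]
      have e1 : deriv a q.1 / k * Real.cos (k * q.2) * (deriv a q.1 / k * Real.cos (k * q.2))
          + deriv a q.1 / k * Real.sin (k * q.2) * (deriv a q.1 / k * Real.sin (k * q.2))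
          + R * (-Real.sin (θ q.1) * (s q.1 / R)) * (R * (-Real.sin (θ q.1) * (s q.1 / R)))
          + R * (Real.cos (θ q.1) * (s q.1 / R)) * (R * (Real.cos (θ q.1) * (s q.1 / R)))
          = (deriv a q.1 / k) ^ 2 * (Real.sin (k * q.2) ^ 2 + Real.cos (k * q.2) ^ 2)
            + (R * (s q.1 / R)) * (R * (s q.1 / R))
              * (Real.sin (θ q.1) ^ 2 + Real.cos (θ q.1) ^ 2) := by ring
      rw [e1, hcs, hcs2, hRs, hsq]
      simp only [hwdef]
      ring
    · rw [inner_fderiv4 X Y Z W q _ _ _ _ hXd hYd hZd' hWd']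
      simp only [_root_.add_apply, _root_.smul_apply,
        ContinuousLinearMap.coe_fst', ContinuousLinearMap.coe_snd', smul_eq_mul, mul_one,
        mul_zero, add_zero, zero_add, hC, hS]
      ring
    · rw [inner_fderiv4 X Y Z W q _ _ _ _ hXd hYd hZd' hWd']
      simp only [_root_.add_apply, _root_.smul_apply,
        ContinuousLinearMap.coe_fst', ContinuousLinearMap.coe_snd', smul_eq_mul, mul_one,
        mul_zero, add_zero, zero_add, hC, hS, hP]
      have e3 : a q.1 / k * (-Real.sin (k * q.2) * k) * (a q.1 / k * (-Real.sin (k * q.2) * k))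
          + a q.1 / k * (Real.cos (k * q.2) * k) * (a q.1 / k * (Real.cos (k * q.2) * k))
          = (a q.1 / k * k) ^ 2 * (Real.sin (k * q.2) ^ 2 + Real.cos (k * q.2) ^ 2) := by ring
      rw [e3, hcs2, div_mul_cancel₀ _ hk0.ne', mul_one]

end Vale.Agent.P205
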